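import Mathlib
import Crest.Prelude.Def_ModularData

/-!
# S0112, package A5: the Fourier representation of the bounded calculus

For a `LineCalculus` `D` (the Prelude's bounded continuous functional calculus of a self-adjoint
operator) and an integrable `f : ℝ → ℂ` with `F u = ∫ f t * exp (i t u) dt`, we prove
`F(D) x = ∫ f t • exp(itD) x dt` (Bochner integral in `H`).

By-products: the wave group laws, `‖exp(itD) x‖ = ‖x‖` and strong continuity of `t ↦ exp(itD) x`.
Everything is stated on the Prelude objects (`D.apply`, `D.wave`, `LineCalculus.character`).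
-/

set_option autoImplicit false

namespace Crest.Agent.Helper63.S0112

open Crest.OpAlg MeasureTheory Filter Topology
open scoped BoundedContinuousFunction

variable {H : Type*} [NormedAddCommGroup H] [InnerProductSpace ℂ H] [CompleteSpace H]

/-! ### characters -/

theorem character_apply (t u : ℝ) :
    LineCalculus.character t u = Complex.exp (Complex.I * ((t * u : ℝ) : ℂ)) := rfl

theorem norm_character_apply (t u : ℝ) : ‖LineCalculus.character t u‖ = 1 := by
  rw [character_apply, Complex.norm_exp]; simp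

theorem norm_character_le (t : ℝ) : ‖LineCalculus.character t‖ ≤ 1 := by
  rw [BoundedContinuousFunction.norm_le zero_le_one]
  intro u; exact (norm_character_apply t u).le

theorem character_zero : LineCalculus.character 0 = 1 := by
  ext u; simp [character_apply]

theorem character_add (s t : ℝ) :
    LineCalculus.character (s + t) = LineCalculus.character s * LineCalculus.character t := by
  ext u
  simp only [character_apply, BoundedContinuousFunction.mul_apply]
  rw [← Complex.exp_add]; congr 1; push_cast; ring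

theorem star_character (t : ℝ) :
    star (LineCalculus.character t) = LineCalculus.character (-t) := by
  ext u
  simp only [BoundedContinuousFunction.star_apply, character_apply]
  rw [RCLike.star_def, ← Complex.exp_conj]; congr 1
  simp

theorem norm_character_sub_le (t t' u : ℝ) :
    ‖LineCalculus.character t u - LineCalculus.character t' u‖ ≤ |t - t'| * |u| := by
  have h : LineCalculus.character t u - LineCalculus.character t' u
      = LineCalculus.character t' u *
        (Complex.exp (Complex.I * (((t - t') * u : ℝ) : ℂ)) - 1) := by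
    simp only [character_apply]
    rw [mul_sub, mul_one, ← Complex.exp_add]
    congr 2; push_cast; ring
  rw [h, norm_mul, norm_character_apply, one_mul]
  calc ‖Complex.exp (Complex.I * (((t - t') * u : ℝ) : ℂ)) - 1‖
      ≤ ‖(t - t') * u‖ := Real.norm_exp_I_mul_ofReal_sub_one_le
    _ = |t - t'| * |u| := by rw [Real.norm_eq_abs, abs_mul]

/-- For a compactly supported cut-off `χ`, `t ↦ e_t χ` is Lipschitz into `C_b(ℝ, ℂ)`. -/
theorem exists_lipschitz_character_mul (χ : ℝ →ᵇ ℂ) (hχ : HasCompactSupport (χ : ℝ → ℂ)) :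
    ∃ R : ℝ, 0 ≤ R ∧ ∀ t t' : ℝ,
      dist (LineCalculus.character t * χ) (LineCalculus.character t' * χ) ≤ R * |t - t'| := by
  obtain ⟨r, hr⟩ := (isBounded_iff_forall_norm_le.mp hχ.isCompact.isBounded)
  have hr0 : 0 ≤ max r 0 := le_max_right _ _
  refine ⟨max r 0 * ‖χ‖, mul_nonneg hr0 (norm_nonneg _), fun t t' => ?_⟩
  rw [BoundedContinuousFunction.dist_le
    (mul_nonneg (mul_nonneg hr0 (norm_nonneg _)) (abs_nonneg _))]
  intro u
  rw [dist_eq_norm]
  simp only [BoundedContinuousFunction.mul_apply]
  rw [← sub_mul, norm_mul]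
  by_cases hu : χ u = 0
  · rw [hu, norm_zero, mul_zero]
    exact mul_nonneg (mul_nonneg hr0 (norm_nonneg _)) (abs_nonneg _)
  · have hu' : u ∈ tsupport (χ : ℝ → ℂ) := subset_tsupport _ (Function.mem_support.mpr hu)
    have h1 : |u| ≤ max r 0 := by
      have := hr u hu'
      rw [Real.norm_eq_abs] at this
      exact this.trans (le_max_left _ _)
    have h2 : ‖χ u‖ ≤ ‖χ‖ := χ.norm_coe_le_norm u
    calc ‖LineCalculus.character t u - LineCalculus.character t' u‖ * ‖χ u‖
        ≤ (|t - t'| * |u|) * ‖χ u‖ :=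
          mul_le_mul_of_nonneg_right (norm_character_sub_le t t' u) (norm_nonneg _)
      _ ≤ (|t - t'| * max r 0) * ‖χ‖ := by
          apply mul_le_mul _ h2 (norm_nonneg _) (mul_nonneg (abs_nonneg _) hr0)
          exact mul_le_mul_of_nonneg_left h1 (abs_nonneg _)
      _ = max r 0 * ‖χ‖ * |t - t'| := by ring

theorem continuous_character_mul (χ : ℝ →ᵇ ℂ) (hχ : HasCompactSupport (χ : ℝ → ℂ)) :
    Continuous fun t : ℝ => LineCalculus.character t * χ := by
  obtain ⟨R, hR, h⟩ := exists_lipschitz_character_mul χ hχ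
  have : LipschitzWith ⟨R, hR⟩ fun t : ℝ => LineCalculus.character t * χ :=
    LipschitzWith.of_dist_le_mul fun t t' => by
      rw [Real.dist_eq]; exact h t t'
  exact this.continuous

/-! ### the calculus as a continuous linear map, and the wave group -/

theorem norm_apply_le (D : LineCalculus H) (g : ℝ →ᵇ ℂ) : ‖D.apply g‖ ≤ ‖g‖ :=
  NonUnitalStarAlgHom.norm_apply_le D.apply g

theorem norm_apply_apply_le (D : LineCalculus H) (g : ℝ →ᵇ ℂ) (x : H) :
    ‖D.apply g x‖ ≤ ‖g‖ * ‖x‖ :=
  ((D.apply g).le_opNorm x).trans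
    (mul_le_mul_of_nonneg_right (norm_apply_le D g) (norm_nonneg _))

/-- `g ↦ g(D) x` as a continuous linear map `C_b(ℝ, ℂ) → H`. -/
noncomputable def applyCLM (D : LineCalculus H) (x : H) : (ℝ →ᵇ ℂ) →L[ℂ] H :=
  LinearMap.mkContinuous
    { toFun := fun g => D.apply g x
      map_add' := fun g₁ g₂ => by simp
      map_smul' := fun c g => by simp }
    ‖x‖ (fun g => by
      simpa [mul_comm] using norm_apply_apply_le D g x)

@[simp] theorem applyCLM_apply (D : LineCalculus H) (x : H) (g : ℝ →ᵇ ℂ) :
    applyCLM D x g = D.apply g x := rfl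

theorem wave_zero (D : LineCalculus H) : D.wave 0 = 1 := by
  unfold LineCalculus.wave; rw [character_zero, map_one]

theorem wave_add (D : LineCalculus H) (s t : ℝ) : D.wave (s + t) = D.wave s * D.wave t := by
  unfold LineCalculus.wave; rw [character_add, map_mul]

theorem star_wave (D : LineCalculus H) (t : ℝ) : star (D.wave t) = D.wave (-t) := by
  unfold LineCalculus.wave; rw [← map_star, star_character]

theorem wave_neg_wave_apply (D : LineCalculus H) (t : ℝ) (x : H) :
    D.wave (-t) (D.wave t x) = x := by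
  have h : D.wave (-t) * D.wave t = 1 := by rw [← wave_add]; simp [wave_zero]
  have := congrArg (fun A : H →L[ℂ] H => A x) h
  simpa using this

theorem norm_wave_le (D : LineCalculus H) (t : ℝ) : ‖D.wave t‖ ≤ 1 :=
  (norm_apply_le D _).trans (norm_character_le t)

theorem norm_wave_apply_le (D : LineCalculus H) (t : ℝ) (x : H) : ‖D.wave t x‖ ≤ ‖x‖ := by
  calc ‖D.wave t x‖ ≤ ‖D.wave t‖ * ‖x‖ := (D.wave t).le_opNorm x
    _ ≤ 1 * ‖x‖ := mul_le_mul_of_nonneg_right (norm_wave_le D t) (norm_nonneg _)
    _ = ‖x‖ := one_mul _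

theorem norm_wave_apply (D : LineCalculus H) (t : ℝ) (x : H) : ‖D.wave t x‖ = ‖x‖ := by
  apply le_antisymm (norm_wave_apply_le D t x)
  calc ‖x‖ = ‖D.wave (-t) (D.wave t x)‖ := by rw [wave_neg_wave_apply]
    _ ≤ ‖D.wave t x‖ := norm_wave_apply_le D (-t) _

theorem wave_apply_apply (D : LineCalculus H) (t : ℝ) (χ : ℝ →ᵇ ℂ) (y : H) :
    D.wave t (D.apply χ y) = D.apply (LineCalculus.character t * χ) y := by
  unfold LineCalculus.wave; rw [map_mul]; rfl

/-- A3: strong continuity of the wave group. -/
theorem continuous_wave_apply (D : LineCalculus H) (x : H) :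
    Continuous fun t : ℝ => D.wave t x := by
  apply continuous_of_uniform_approx_of_continuous
  intro V hV
  obtain ⟨ε, hε, hεV⟩ := Metric.mem_uniformity_dist.mp hV
  obtain ⟨χ, hχ, hx⟩ := D.window x ε hε
  refine ⟨fun t => D.wave t (D.apply χ x), ?_, fun t => hεV ?_⟩
  · have h1 : Continuous fun t : ℝ => applyCLM D x (LineCalculus.character t * χ) :=
      (applyCLM D x).continuous.comp (continuous_character_mul χ hχ)
    refine h1.congr fun t => ?_
    rw [applyCLM_apply, wave_apply_apply]
  · rw [dist_eq_norm, ← map_sub, norm_wave_apply, ← norm_neg, neg_sub]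
    exact hx

/-! ### integrals -/

theorem integrable_smul_wave (D : LineCalculus H) (f : ℝ → ℂ) (hf : Integrable f) (x : H) :
    Integrable fun t => f t • D.wave t x := by
  refine Integrable.mono' (hf.norm.mul_const ‖x‖) ?_ ?_
  · exact hf.aestronglyMeasurable.smul (continuous_wave_apply D x).aestronglyMeasurable
  · exact Eventually.of_forall fun t => by rw [norm_smul, norm_wave_apply]

theorem integrable_smul_character_mul (f : ℝ → ℂ) (hf : Integrable f) (χ : ℝ →ᵇ ℂ)
    (hχ : HasCompactSupport (χ : ℝ → ℂ)) :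
    Integrable fun t => f t • (LineCalculus.character t * χ) := by
  refine Integrable.mono' (hf.norm.mul_const ‖χ‖) ?_ ?_
  · exact hf.aestronglyMeasurable.smul (continuous_character_mul χ hχ).aestronglyMeasurable
  · refine Eventually.of_forall fun t => ?_
    rw [norm_smul]
    apply mul_le_mul_of_nonneg_left _ (norm_nonneg _)
    calc ‖LineCalculus.character t * χ‖ ≤ ‖LineCalculus.character t‖ * ‖χ‖ := norm_mul_le _ _
      _ ≤ 1 * ‖χ‖ := mul_le_mul_of_nonneg_right (norm_character_le t) (norm_nonneg _)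
      _ = ‖χ‖ := one_mul _

/-- The Bochner integral `∫ f(t) e_t χ dt` in `C_b(ℝ, ℂ)` is `F χ`. -/
theorem integral_smul_character_mul (f : ℝ → ℂ) (hf : Integrable f) (F : ℝ →ᵇ ℂ)
    (hF : ∀ u, F u = ∫ t, f t * Complex.exp (Complex.I * ((t * u : ℝ) : ℂ)))
    (χ : ℝ →ᵇ ℂ) (hχ : HasCompactSupport (χ : ℝ → ℂ)) :
    ∫ t, f t • (LineCalculus.character t * χ) = F * χ := by
  ext u
  have h1 := (BoundedContinuousFunction.evalCLM ℂ u).integral_comp_comm
    (integrable_smul_character_mul f hf χ hχ)
  simp only [BoundedContinuousFunction.evalCLM_apply] at h1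
  rw [← h1, BoundedContinuousFunction.mul_apply, hF u, ← integral_mul_const]
  refine integral_congr_ae (Eventually.of_forall fun t => ?_)
  simp only [BoundedContinuousFunction.coe_smul, BoundedContinuousFunction.mul_apply,
    character_apply, smul_eq_mul]
  ring

/-- **A5** (Fourier representation of the bounded calculus).  If `f` is integrable and
`F(u) = ∫ f(t) e^{itu} dt`, then `F(D) x = ∫ f(t) e^{itD} x dt`. -/
theorem apply_eq_integral_wave (D : LineCalculus H) (f : ℝ → ℂ) (hf : Integrable f)
    (F : ℝ →ᵇ ℂ) (hF : ∀ u, F u = ∫ t, f t * Complex.exp (Complex.I * ((t * u : ℝ) : ℂ)))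
    (x : H) : D.apply F x = ∫ t, f t • D.wave t x := by
  -- on cut-off vectors
  have key : ∀ χ : ℝ →ᵇ ℂ, HasCompactSupport (χ : ℝ → ℂ) → ∀ y : H,
      D.apply F (D.apply χ y) = ∫ t, f t • D.wave t (D.apply χ y) := by
    intro χ hχ y
    have h1 := (applyCLM D y).integral_comp_comm (integrable_smul_character_mul f hf χ hχ)
    rw [integral_smul_character_mul f hf F hF χ hχ] at h1
    have h2 : applyCLM D y (F * χ) = D.apply F (D.apply χ y) := by
      rw [applyCLM_apply, map_mul]; rfl
    rw [← h2, ← h1]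
    refine integral_congr_ae (Eventually.of_forall fun t => ?_)
    simp only [map_smul, applyCLM_apply, wave_apply_apply]
  -- Lipschitz bound for the integral side
  have hL : ∀ y y' : H,
      ‖(∫ t, f t • D.wave t y) - ∫ t, f t • D.wave t y'‖ ≤ (∫ t, ‖f t‖) * ‖y - y'‖ := by
    intro y y'
    rw [← integral_sub (integrable_smul_wave D f hf y) (integrable_smul_wave D f hf y')]
    calc ‖∫ t, (f t • D.wave t y - f t • D.wave t y')‖
        ≤ ∫ t, ‖f t • D.wave t y - f t • D.wave t y'‖ := norm_integral_le_integral_norm _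
      _ = ∫ t, ‖f t‖ * ‖y - y'‖ := by
          refine integral_congr_ae (Eventually.of_forall fun t => ?_)
          simp only
          rw [← smul_sub, ← map_sub, norm_smul, norm_wave_apply]
      _ = (∫ t, ‖f t‖) * ‖y - y'‖ := integral_mul_const _ _
  have hI0 : 0 ≤ ∫ t, ‖f t‖ := integral_nonneg fun t => norm_nonneg _
  refine eq_of_forall_dist_le fun ε hε => ?_
  set C : ℝ := ‖F‖ + (∫ t, ‖f t‖) + 1 with hC
  have hCpos : 0 < C := by positivity
  obtain ⟨χ, hχ, hx⟩ := D.window x (ε / C) (div_pos hε hCpos)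
  have e1 : ‖D.apply F x - D.apply F (D.apply χ x)‖ ≤ ‖F‖ * (ε / C) := by
    rw [← map_sub]
    calc ‖D.apply F (x - D.apply χ x)‖ ≤ ‖F‖ * ‖x - D.apply χ x‖ := norm_apply_apply_le D F _
      _ ≤ ‖F‖ * (ε / C) := by
          apply mul_le_mul_of_nonneg_left _ (norm_nonneg _)
          rw [← norm_neg, neg_sub]; exact hx.le
  have e2 : ‖(∫ t, f t • D.wave t (D.apply χ x)) - ∫ t, f t • D.wave t x‖
      ≤ (∫ t, ‖f t‖) * (ε / C) :=
    (hL _ _).trans (mul_le_mul_of_nonneg_left hx.le hI0)
  rw [dist_eq_norm]
  calc ‖D.apply F x - ∫ t, f t • D.wave t x‖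
      = ‖(D.apply F x - D.apply F (D.apply χ x)) +
          ((∫ t, f t • D.wave t (D.apply χ x)) - ∫ t, f t • D.wave t x)‖ := by
        rw [key χ hχ x]; congr 1; abel
    _ ≤ ‖F‖ * (ε / C) + (∫ t, ‖f t‖) * (ε / C) := (norm_add_le _ _).trans (add_le_add e1 e2)
    _ = (‖F‖ + ∫ t, ‖f t‖) * (ε / C) := by ring
    _ ≤ C * (ε / C) := by
        apply mul_le_mul_of_nonneg_right _ (div_pos hε hCpos).le
        rw [hC]; linarith
    _ = ε := by field_simp

end Crest.Agent.Helper63.S0112
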